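import Vale.Agent.P274.Main

/-! Kollár–Pardon bounded-domain question: full affirmative answer. -/

namespace Vale.Agent.Results.P274.Bounded

open Vale.Agent.P274

theorem result {N : ℕ} (S : Set (MvPolynomial (Fin N) ℂ)) (U : Set (Fin N → ℂ))
    (hopen : ∃ O : Set (Fin N → ℂ), IsOpen O ∧
      U = {z | ∀ P ∈ S, MvPolynomial.eval z P = 0} ∩ O)
    (hsa : IsSemialg U) (hc : IsConnected U) (hb : Bornology.IsBounded U)
    (Γ : Type*) [Group Γ] [MulAction Γ U]
    (hhol : ∀ γ : Γ, HolMap U (fun x => (γ • x : U).1)) [ProperlyDiscontinuousSMul Γ U]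
    [CompactSpace (Quotient (MulAction.orbitRel Γ U))] :
    ∃ (k : ℕ) (D : Set (Fin k → ℂ)), IsBSD D ∧ ∃ e : U ≃ D,
      HolMap U (fun x => (e x).1) ∧ HolMap D (fun y => (e.symm y).1) :=
  main S U hopen hsa hc hb Γ hhol

end Vale.Agent.Results.P274.Bounded
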